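import Vale.Agent.P030.T.Frame

/-!
# P030, frame T: greedy columns

Among the admissible columns, in a given time order, choose the greedy basis: a column is chosen
when it is not in the span of all earlier admissible columns.  Then every admissible column
(chosen or not) is in the span of the chosen columns which come before it, so a row vector killed
by the earlier chosen columns is killed by ALL earlier admissible columns.

Consequence: the archimedean bound is needed for greedy choices only (`StARg`).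
-/

open Finset

namespace Vale.Agent.P030.H991

section abstract
variable {F V C ι : Type*} [Field F] [AddCommGroup V] [Module F V]

/-- every admissible column is in the span of the chosen columns up to it -/
def Greedy (F : Type*) {V C ι : Type*} [Field F] [AddCommGroup V] [Module F V]
    (E : Finset C) (v : C → V) (ord : C → ℕ) (σ : ι → C) : Prop :=
  ∀ e ∈ E, ∀ a : ι, ord e < ord (σ a) →
    v e ∈ Submodule.span F {w | ∃ i, ord (σ i) < ord (σ a) ∧ v (σ i) = w}

/-- the use of greediness -/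
theorem Greedy.kill {E : Finset C} {v : C → V} {ord : C → ℕ} {σ : ι → C} (h : Greedy F E v ord σ)
    {W : Type*} [AddCommGroup W] [Module F W] (y : V →ₗ[F] W) (a : ι)
    (hy : ∀ b, ord (σ b) < ord (σ a) → y (v (σ b)) = 0) :
    ∀ e ∈ E, ord e < ord (σ a) → y (v e) = 0 := by
  intro e he hlt
  have h1 := h e he a hlt
  have h2 : Submodule.span F {w | ∃ i, ord (σ i) < ord (σ a) ∧ v (σ i) = w} ≤ LinearMap.ker y := by
    rw [Submodule.span_le]
    rintro w ⟨i, hi, rfl⟩
    exact hy i hi
  exact h2 h1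

theorem exists_greedy [Fintype ι] [FiniteDimensional F V] [DecidableEq C]
    (hdim : Module.finrank F V = Fintype.card ι)
    (E : Finset C) (v : C → V) (ord : C → ℕ) (hinj : Set.InjOn ord E)
    (hspan : Submodule.span F (v '' E) = ⊤) :
    ∃ σ : ι → C, Function.Injective σ ∧ (∀ i, σ i ∈ E) ∧
      LinearIndependent F (fun i => v (σ i)) ∧ Greedy F E v ord σ := by
  classical
  set B : Finset C := E.filter
    (fun e => v e ∉ Submodule.span F (v '' {e' | e' ∈ E ∧ ord e' < ord e})) with hB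
  -- claim A
  have hA : ∀ n : ℕ, ∀ N : ℕ, n < N → ∀ e ∈ E, ord e = n →
      v e ∈ Submodule.span F (v '' {e' | e' ∈ B ∧ ord e' < N}) := by
    intro n
    induction n using Nat.strong_induction_on with
    | _ n ih =>
      intro N hN e he hen
      by_cases heB : e ∈ B
      · exact Submodule.subset_span ⟨e, ⟨heB, by omega⟩, rfl⟩
      · have h1 : v e ∈ Submodule.span F (v '' {e' | e' ∈ E ∧ ord e' < ord e}) := by
          by_contra hcon
          exact heB (by rw [hB, Finset.mem_filter]; exact ⟨he, hcon⟩)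
        have h2 : Submodule.span F (v '' {e' | e' ∈ E ∧ ord e' < ord e}) ≤
            Submodule.span F (v '' {e' | e' ∈ B ∧ ord e' < N}) := by
          rw [Submodule.span_le]
          rintro w ⟨e', ⟨he', hlt⟩, rfl⟩
          exact ih (ord e') (by omega) N (by omega) e' he' rfl
        exact h2 h1
  -- claim B
  have hBi : ∀ T : Finset C, T ⊆ B → LinearIndepOn F v (T : Set C) := by
    intro T
    induction T using Finset.induction_on_max_value ord with
    | empty => intro _; simp
    | insert a T haT hmax ih =>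
      intro hT
      have hTB : T ⊆ B := fun x hx => hT (Finset.mem_insert_of_mem hx)
      have haB : a ∈ B := hT (Finset.mem_insert_self _ _)
      have haE : a ∈ E := (Finset.mem_filter.1 haB).1
      have hna := (Finset.mem_filter.1 haB).2
      rw [Finset.coe_insert]
      refine (ih hTB).insert ?_
      intro hcon
      refine hna (Submodule.span_mono ?_ hcon)
      rintro w ⟨x, hx, rfl⟩
      have hxE : x ∈ E := (Finset.mem_filter.1 (hTB hx)).1
      have h1 := hmax x hx
      have h2 : ord x ≠ ord a := fun h => haT (by rw [← hinj hxE haE h]; exact hx)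
      exact ⟨x, ⟨hxE, by omega⟩, rfl⟩
  have hBind := hBi B (Finset.Subset.refl _)
  have hBspan : Submodule.span F (v '' (B : Set C)) = ⊤ := by
    rw [← top_le_iff, ← hspan, Submodule.span_le]
    rintro w ⟨e, he, rfl⟩
    have h1 := hA (ord e) (ord e + 1) (by omega) e he rfl
    exact Submodule.span_mono (Set.image_mono fun x hx => hx.1) h1
  have hcard : Fintype.card ι = Fintype.card B := by
    have h1 : LinearIndependent F (fun b : B => v b) := hBind
    have h2 := finrank_span_eq_card h1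
    have h3 : Set.range (fun b : B => v b) = v '' (B : Set C) := by
      ext w; simp
    rw [h3, hBspan, finrank_top] at h2
    rw [← hdim, h2]
  obtain ⟨φ⟩ := Fintype.card_eq.1 hcard
  refine ⟨fun i => (φ i : C), fun i j h => φ.injective (Subtype.ext h), fun i => ?_, ?_, ?_⟩
  · exact (Finset.mem_filter.1 (φ i).2).1
  · exact LinearIndependent.comp (v := fun b : B => v b) hBind φ φ.injective
  · intro e he a hlt
    have h1 := hA (ord e) (ord (φ a)) hlt e he rfl
    refine Submodule.span_mono ?_ h1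
    rintro w ⟨x, ⟨hxB, hlt'⟩, rfl⟩
    exact ⟨φ.symm ⟨x, hxB⟩, by simpa using hlt', by simp⟩

end abstract

open Vale.Agent.P030.T

/-- the column vector -/
noncomputable def colv {R : Type*} [Field R] [Algebra ℚ R] (D : ℕ) (x : R) (c : Cl) :
    Fin D × Fin 8 → R :=
  fun r => algebraMap ℚ R (ent0 D c.1 c.2 r.1 r.2) + x * algebraMap ℚ R (ent1 D c.1 c.2 r.1 r.2)

theorem Mx_apply {R : Type*} [Field R] [Algebra ℚ R] (D : ℕ) (x : R) (σ : Fin D × Fin 8 → Cl)
    (r c : Fin D × Fin 8) : Mx D x σ r c = colv D x (σ c) r := rfl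

instance : Fintype Gp :=
  ⟨{.z1, .zl, .z8, .zab, .w1, .wl, .wy, .w8, .wab, .wf7, .v2, .vl, .v8, .vb, .x2, .xl, .x1},
    fun g => by cases g <;> decide⟩

/-- the admissible columns -/
def Ext (P : Par) (c0 s : ℕ) : Finset Cl :=
  (Finset.univ : Finset Gp).biUnion fun g => (Finset.range (P.ht g * s + c0)).image fun k => (g, k)

theorem mem_Ext {P : Par} {c0 s : ℕ} {c : Cl} : c ∈ Ext P c0 s ↔ c.2 < P.ht c.1 * s + c0 := by
  simp only [Ext, Finset.mem_biUnion, Finset.mem_univ, true_and, Finset.mem_image, Finset.mem_range]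
  constructor
  · rintro ⟨g, k, hk, rfl⟩; exact hk
  · intro h; exact ⟨c.1, c.2, h, rfl⟩

/-- a greedy choice of columns at the real point `x` -/
def Grd (P : Par) (c0 s : ℕ) (x : ℝ) (ord : Cl → ℕ) (σ : Fin (P.D0 * s) × Fin 8 → Cl) : Prop :=
  Greedy ℝ (Ext P c0 s) (colv (P.D0 * s) x) ord σ

/-- AR for greedy choices -/
def StARg (P : Par) (c0 : ℕ) (ord : ℕ → Cl → ℕ) (A : ℝ) : Prop :=
  ∀ ε : ℝ, 0 < ε → ∃ s0 : ℕ, ∀ s, s0 ≤ s → ∀ σ, Adm P c0 s σ → Grd P c0 s (Gc / 2) (ord s) σ →
    |(Mx (P.D0 * s) (Gc / 2) σ).det| ≤ Real.exp (-(A - ε) * (s : ℝ) ^ 2)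

/-- a greedy choice exists as soon as one admissible minor is nonzero -/
theorem exists_grd {P : Par} {c0 s : ℕ} {x : ℝ} {ord : Cl → ℕ}
    (hord : Set.InjOn ord (Ext P c0 s)) {σ₀ : Fin (P.D0 * s) × Fin 8 → Cl}
    (hσ : Adm P c0 s σ₀) (hdet : (Mx (P.D0 * s) x σ₀).det ≠ 0) :
    ∃ σ, Adm P c0 s σ ∧ Grd P c0 s x ord σ ∧ (Mx (P.D0 * s) x σ).det ≠ 0 := by
  classical
  have hli : LinearIndependent ℝ (fun i => colv (P.D0 * s) x (σ₀ i)) := by
    have h1 := Matrix.linearIndependent_cols_of_det_ne_zero hdet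
    exact h1
  have hspan : Submodule.span ℝ (colv (P.D0 * s) x '' (Ext P c0 s : Set Cl)) = ⊤ := by
    have h1 := hli.span_eq_top_of_card_eq_finrank' (by simp)
    rw [← top_le_iff, ← h1, Submodule.span_le]
    rintro w ⟨i, rfl⟩
    exact Submodule.subset_span ⟨σ₀ i, by simpa using mem_Ext.2 (hσ.2 i), rfl⟩
  obtain ⟨σ, hinj, hE, hind, hgr⟩ := exists_greedy (F := ℝ) (ι := Fin (P.D0 * s) × Fin 8)
    (by simp) (Ext P c0 s) (colv (P.D0 * s) x) ord hord hspan
  refine ⟨σ, ⟨hinj, fun c => mem_Ext.1 (hE c)⟩, hgr, ?_⟩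
  have h2 : LinearIndependent ℝ (Mx (P.D0 * s) x σ).col := hind
  have h3 : IsUnit (Mx (P.D0 * s) x σ) := Matrix.linearIndependent_cols_iff_isUnit.1 h2
  exact ((Matrix.isUnit_iff_isUnit_det _).1 h3).ne_zero

/-- **the deduction, with greedy columns** -/
theorem irrational_of_greedy {P : Par} {c0 : ℕ} {ord : ℕ → Cl → ℕ} {A B B2 : ℝ}
    (hord : ∀ s, Set.InjOn (ord s) (Ext P c0 s))
    (hNV : StNV P c0) (hAR : StARg P c0 ord A)
    (hOD : StOD P c0 B) (hTW : StTW P c0 B2) (hnum : B + B2 < A) :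
    Irrational (∑' j : ℕ, (-1 : ℝ) ^ j / (2 * (j : ℝ) + 1) ^ 2) := by
  classical
  change Irrational Gc
  intro hrat
  obtain ⟨q, hq⟩ := hrat
  set x : ℚ := q / 2 with hx
  have hxG : ((x : ℚ) : ℝ) = Gc / 2 := by rw [hx, ← hq]; push_cast; ring
  set ε := (A - B - B2) / 4 with hε
  have hε0 : 0 < ε := by rw [hε]; linarith
  obtain ⟨s1, h1⟩ := hNV x
  obtain ⟨s2, h2⟩ := hAR ε hε0
  obtain ⟨s3, h3⟩ := hOD x ε hε0
  obtain ⟨s4, h4⟩ := hTW x ε hε0
  set s := max (max s1 s2) (max s3 (max s4 1)) with hs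
  have hs1 : s1 ≤ s := le_trans (le_max_left _ _) (le_max_left _ _)
  have hs2 : s2 ≤ s := le_trans (le_max_right _ _) (le_max_left _ _)
  have hs3 : s3 ≤ s := le_trans (le_max_left _ _) (le_max_right _ _)
  have hs4 : s4 ≤ s := le_trans (le_max_left _ _) (le_trans (le_max_right _ _) (le_max_right _ _))
  have hs5 : 1 ≤ s := le_trans (le_max_right _ _) (le_trans (le_max_right _ _) (le_max_right _ _))
  obtain ⟨σ₀, hσ₀, hdet₀⟩ := h1 s hs1
  have hdetR : (Mx (P.D0 * s) (Gc / 2 : ℝ) σ₀).det ≠ 0 := by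
    rw [← hxG, ← det_cast]
    exact_mod_cast hdet₀
  obtain ⟨σ, hσ, hgr, hdetR'⟩ := exists_grd (hord s) hσ₀ hdetR
  have hdet : (Mx (P.D0 * s) x σ).det ≠ 0 := by
    intro h0
    apply hdetR'
    rw [← hxG, ← det_cast, h0, Rat.cast_zero]
  have hA := h2 s hs2 σ hσ hgr
  obtain ⟨S, c, hSp, hSs, hSv⟩ := h3 s hs3
  have hB2 := h4 s hs4 σ hσ hdet
  set d := (Mx (P.D0 * s) x σ).det with hd
  have h2S : 2 ∉ S := fun h => (hSp 2 h).2 rfl
  have hlow := log_ge_of_val hdet (insert 2 S)
    (fun p => if p = 2 then -padicValRat 2 d else c p)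
    (by
      intro p hp
      rcases Finset.mem_insert.1 hp with h | h
      · rw [h]; exact Nat.prime_two
      · exact (hSp p h).1)
    (by
      intro p hp
      by_cases hp2 : p = 2
      · subst hp2
        simp
      · have := hSv σ hσ hdet p hp hp2
        simp only [Finset.mem_insert, hp2, false_or, if_false]
        exact this)
  rw [Finset.sum_insert h2S] at hlow
  have e1 : ∑ p ∈ S, (((if p = 2 then -padicValRat 2 d else c p : ℤ)) : ℝ) * Real.log p
      = ∑ p ∈ S, (c p : ℝ) * Real.log p := by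
    refine Finset.sum_congr rfl fun p hp => ?_
    rw [if_neg (hSp p hp).2]
  rw [e1] at hlow
  simp only [if_true] at hlow
  push_cast at hlow
  have hdR : |(d : ℝ)| ≤ Real.exp (-(A - ε) * (s : ℝ) ^ 2) := by
    rw [hd, det_cast, hxG]; exact hA
  have hd0 : 0 < |(d : ℝ)| := abs_pos.2 (by exact_mod_cast hdet)
  have hup : Real.log |(d : ℝ)| ≤ -(A - ε) * (s : ℝ) ^ 2 := by
    rw [← Real.log_exp (-(A - ε) * (s : ℝ) ^ 2)]
    exact Real.log_le_log hd0 hdR
  have hsq : (1 : ℝ) ≤ (s : ℝ) ^ 2 := by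
    have : (1 : ℝ) ≤ s := by exact_mod_cast hs5
    nlinarith
  have hneg : (-(A - ε) + (B + ε) + (B2 + ε)) < 0 := by rw [hε]; linarith
  nlinarith

end Vale.Agent.P030.H991
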